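import Vale.Agent.Lib.P062.Sound

namespace Vale.Agent.Lib.P062

/-- Certificate stream. -/
def L3_null_data : List ℕ := [
597471879183670013890083724853875936099087374469723477865953869601910227115744654155114752583091269792891739931598910936788834477033299897237373535414156590595210068640890625196054358239079172341702920190830058350759722310252666735681685153675734003797648533588822544943610029305089]

/-- The zone of the proof. -/
def L3_null_zone : ℕ := 1870802029669262436068328443413455195017188307107840

theorem L3_null_chk : (chkN 64 (1 <<< 112 ||| 1 <<< 111 ||| 1 <<< 110) (1 <<< 113 ||| 1 <<< 126 ||| 1 <<< 113) (1, L3_null_data)).map Prod.fst = some L3_null_zone := by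
  decide +kernel

theorem L3_null_ok : ∃ d, ProvedIn d (1 <<< 112 ||| 1 <<< 111 ||| 1 <<< 110) (1 <<< 113 ||| 1 <<< 126 ||| 1 <<< 113) L3_null_zone :=
  proved_of_chk L3_null_chk

end Vale.Agent.Lib.P062
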