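import Vale.Agent.Lib.P062.Sound

namespace Vale.Agent.Lib.P062

/-- Certificate stream. -/
def L3_r0_1_data : List ℕ := [
321799561439766177916389107869133664568230708420059797518297501721612836663271612271405520650513533886948026085042792395370718740550875417178367407270094849637730662477694641559008414096289399876842880856742162498836347792643222821087691776953264783898736211251248035828831102385084559784656603303987625001384693128111516730795787731708364529154978440792974925739821571933508693249]

/-- The zone of the proof. -/
def L3_r0_1_zone : ℕ := 1870802024093571029797274387579896753966638212055040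

theorem L3_r0_1_chk : (chkN 64 (1 <<< 112 ||| 1 <<< 111 ||| 1 <<< 110) (1 <<< 113 ||| 1 <<< 126 ||| 1 <<< 127) (1, L3_r0_1_data)).map Prod.fst = some L3_r0_1_zone := by
  decide +kernel

theorem L3_r0_1_ok : ∃ d, ProvedIn d (1 <<< 112 ||| 1 <<< 111 ||| 1 <<< 110) (1 <<< 113 ||| 1 <<< 126 ||| 1 <<< 127) L3_r0_1_zone :=
  proved_of_chk L3_r0_1_chk

end Vale.Agent.Lib.P062
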