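import Vale.Agent.Lib.P062.Sound

namespace Vale.Agent.Lib.P062

/-- Certificate stream. -/
def L3_rm2_m1_data : List ℕ := [
45733394022145192222037196359207865994976114911809217238897974393075368679534525299892340946702873728774395758830315215546574036785659498687778453735317373571319139677246175933671911602970979818258636574881897483222046495131803262684463483809235728379713299452571055503905524977250756424801063774262289375821699908563809882974383987246223631953037550915302866693943582692565016318964020896167638763709054753717904049034796487291165608135810183275639681110575190510017009357892578561]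

/-- The zone of the proof. -/
def L3_rm2_m1_zone : ℕ := 14966416192748477844055150370671899372735860303724544

theorem L3_rm2_m1_chk : (chkN 64 (1 <<< 112 ||| 1 <<< 111 ||| 1 <<< 110) (1 <<< 113 ||| 1 <<< 126 ||| 1 <<< 95) (1, L3_rm2_m1_data)).map Prod.fst = some L3_rm2_m1_zone := by
  decide +kernel

theorem L3_rm2_m1_ok : ∃ d, ProvedIn d (1 <<< 112 ||| 1 <<< 111 ||| 1 <<< 110) (1 <<< 113 ||| 1 <<< 126 ||| 1 <<< 95) L3_rm2_m1_zone :=
  proved_of_chk L3_rm2_m1_chk

end Vale.Agent.Lib.P062
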