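import Vale.Agent.Lib.P062.Sound

namespace Vale.Agent.Lib.P062

/-- Certificate stream. -/
def L3_rm4_0_data : List ℕ := [
3703608742875775080952532638299437518450587109570083358634809875962605252611679602345615205128948801844547800195257821166319833961755191327401257191843418842244490590223232666009171377884551393755926557639631857116604722528898658047810565222889778261919089860206091591328046413241938408516404181140257287888015843755240167840017427786485738229536443895970539457839597963992857947873402356134425739997770301814282838285975422225242777646271242218349205299367854562803080520539659983244132204566325409950759843044602250579324160456629837250484311919688474875792722326715903876377549793149532339921205130730478636545460136134886384204642562701495702764718967763120677999344153951875545090190392206415973918374468020142918249291872256385371855836600925895075121219779122200385991708283488088831461657879995289182799966830969449227347992093561487965638183269019248979201]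

/-- The zone of the proof. -/
def L3_rm4_0_zone : ℕ := 16837218216842006337257891215242415042663822529658880

theorem L3_rm4_0_chk : (chkN 64 (1 <<< 112 ||| 1 <<< 111 ||| 1 <<< 110) (1 <<< 113 ||| 1 <<< 126 ||| 1 <<< 108) (1, L3_rm4_0_data)).map Prod.fst = some L3_rm4_0_zone := by
  decide +kernel

theorem L3_rm4_0_ok : ∃ d, ProvedIn d (1 <<< 112 ||| 1 <<< 111 ||| 1 <<< 110) (1 <<< 113 ||| 1 <<< 126 ||| 1 <<< 108) L3_rm4_0_zone :=
  proved_of_chk L3_rm4_0_chk

end Vale.Agent.Lib.P062
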